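import Vale.Agent.Lib.P072.Axis

namespace Vale.Agent.Results.P072.AxisParallel

open Vale.Agent.Lib.P072

/-- Permanence for weakly reversible mass-action systems all of whose linkage classes lie on lines
parallel to coordinate axes (any number of species and of linkage classes, any positive rate
constants, any positive stoichiometric class). -/
theorem result {d : ℕ} (N : Network d) (hwr : N.WeaklyReversible)
    (σ : (Fin d → ℕ) → Fin d) (hσ : AxisLabel N σ)
    (k : (Fin d → ℕ) × (Fin d → ℕ) → ℝ) (hk : ∀ r ∈ N.reactions, 0 < k r)
    (c : Fin d → ℝ) (hc : ∀ i, 0 < c i) :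
    PermanentOn (N.massAction k) (N.posClass c) :=
  axis_permanent hwr hσ hk c hc

end Vale.Agent.Results.P072.AxisParallel
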